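import Vale.Agent.P198.Main

namespace Vale.Agent.Results.P198.Cannon

open Vale.Agent.P198

theorem result {G : Type*} [Group G] (S : Finset G) (hS : Subgroup.closure (S : Set G) = ⊤)
    (hyp : IsHyperbolic S)
    (hb : Nonempty (Boundary S ≃ₜ Metric.sphere (0 : EuclideanSpace ℝ (Fin 3)) 1)) :
    ∃ ρ : G →* Equiv.Perm H3, Geometric ρ :=
  main S hS hyp hb

end Vale.Agent.Results.P198.Cannon
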